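import Vale.Agent.P088.R2.H338.C.Tub
import Vale.Agent.P088.R2.H509.E.PT
import Vale.Agent.P088.R2.H972.E.PB

/-!
# P088, stage 3: the pair payments between the tubes and region I, pointwise

Payer `zI`: `qt (MI ν c) + TL cT N ρx ρy`; cost `zI`: `cI ν C Zq Zp + cdn + cu2`.
Payers `T1`, `T2`: `MT1 c N`, `MT2 c N`; costs `coT1 C N et`, `coT2 C N et`.
-/

open Set Filter
open scoped ContDiff Topology

set_option linter.unusedSectionVars false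

noncomputable section

namespace Vale.Agent.P088.R2.H446.E

open Vale.Agent.P088.R2.H961.GW Vale.Agent.P088.R2.H960.W Vale.Agent.P088.R2.H644
open Vale.Agent.P088.R2.H551.E Vale.Agent.P088.R2.H972.E Vale.Agent.P088.R2.H338.C
open Vale.Agent.P088.R2.H165.Tab Vale.Agent.P088.R2.H509.PT

variable {E ι : Type*} [NormedAddCommGroup E] [NormedSpace ℝ E] [Fintype ι]
variable {σ τ : Sl E ι} {v₁ v₂ W a b : E → ℝ} {z : E}

/-! ## The payer `zI` -/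

/-- The letters of `zI` dominate those of the tube `W_x = 0` where `ρx = 1`. -/
theorem big_zI1 {ν : Nu E} {c cT : ℝ} {N ρx ρy : E → ℝ} (nn : NN ν z) (hc : 0 ≤ c) (hT : 0 ≤ cT)
    (hN : 0 ≤ N z) (h1 : ρx z = 1) :
    Big (qt (MI ν c) + TL cT N ρx ρy) (c / 4) cT (N z) (N z ^ 2) (N z ^ 3) z := by
  have f1 := nn.F₁
  have f2 := nn.F₂
  have e0 := nn.En
  have hm := nn.m
  have hI : 0 ≤ ν.wI z := by unfold Nu.wI; positivity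
  have y2 : 0 ≤ ρy z ^ 2 := sq_nonneg _
  refine ⟨?_, ?_, ?_, ?_, ?_, ?_, ?_, ?_⟩
  · show c / 4 ≤ 1 / 4 * c + 0
    linarith
  · show cT * N z ≤ 1 / 4 * c + cT * (N z * (ρx z ^ 2 + ρy z ^ 2))
    rw [h1]
    have := mul_nonneg hT (mul_nonneg hN y2)
    nlinarith
  · show cT * N z ≤ 1 / 4 * c + cT * (N z * (ρx z ^ 2 + ρy z ^ 2))
    rw [h1]
    have := mul_nonneg hT (mul_nonneg hN y2)
    nlinarith
  · show 0 ≤ 1 / 4 * (c * ν.En z) + 0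
    positivity
  · show cT * N z ^ 2 ≤ 1 / 4 * (c * ν.F₁ z) + cT * (N z ^ 2 * ρx z ^ 2 + N z ^ 3 * ρy z ^ 2)
    rw [h1]
    have k1 := mul_nonneg hT (mul_nonneg (pow_nonneg hN 3) y2)
    have k2 := mul_nonneg hc f1
    nlinarith
  · show cT * N z ^ 3 ≤ 1 / 4 * (c * ν.F₂ z) + cT * (N z ^ 3 * ρx z ^ 2 + N z ^ 2 * ρy z ^ 2)
    rw [h1]
    have k1 := mul_nonneg hT (mul_nonneg (pow_nonneg hN 2) y2)
    have k2 := mul_nonneg hc f2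
    nlinarith
  · show 0 ≤ 1 / 4 * (c * ν.En z ^ 2) + 0
    positivity
  · show 0 ≤ 1 / 4 * (c * ν.wI z) + 0
    positivity

/-- The letters of `zI` dominate those of the tube `W_y = 0` where `ρy = 1`. -/
theorem big_zI2 {ν : Nu E} {c cT : ℝ} {N ρx ρy : E → ℝ} (nn : NN ν z) (hc : 0 ≤ c) (hT : 0 ≤ cT)
    (hN : 0 ≤ N z) (h1 : ρy z = 1) :
    Big (qt (MI ν c) + TL cT N ρx ρy) (c / 4) cT (N z) (N z ^ 3) (N z ^ 2) z := by
  have f1 := nn.F₁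
  have f2 := nn.F₂
  have e0 := nn.En
  have hm := nn.m
  have hI : 0 ≤ ν.wI z := by unfold Nu.wI; positivity
  have y2 : 0 ≤ ρx z ^ 2 := sq_nonneg _
  refine ⟨?_, ?_, ?_, ?_, ?_, ?_, ?_, ?_⟩
  · show c / 4 ≤ 1 / 4 * c + 0
    linarith
  · show cT * N z ≤ 1 / 4 * c + cT * (N z * (ρx z ^ 2 + ρy z ^ 2))
    rw [h1]
    have := mul_nonneg hT (mul_nonneg hN y2)
    nlinarith
  · show cT * N z ≤ 1 / 4 * c + cT * (N z * (ρx z ^ 2 + ρy z ^ 2))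
    rw [h1]
    have := mul_nonneg hT (mul_nonneg hN y2)
    nlinarith
  · show 0 ≤ 1 / 4 * (c * ν.En z) + 0
    positivity
  · show cT * N z ^ 3 ≤ 1 / 4 * (c * ν.F₁ z) + cT * (N z ^ 2 * ρx z ^ 2 + N z ^ 3 * ρy z ^ 2)
    rw [h1]
    have k1 := mul_nonneg hT (mul_nonneg (pow_nonneg hN 2) y2)
    have k2 := mul_nonneg hc f1
    nlinarith
  · show cT * N z ^ 2 ≤ 1 / 4 * (c * ν.F₂ z) + cT * (N z ^ 3 * ρx z ^ 2 + N z ^ 2 * ρy z ^ 2)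
    rw [h1]
    have k1 := mul_nonneg hT (mul_nonneg (pow_nonneg hN 3) y2)
    have k2 := mul_nonneg hc f2
    nlinarith
  · show 0 ≤ 1 / 4 * (c * ν.En z ^ 2) + 0
    positivity
  · show 0 ≤ 1 / 4 * (c * ν.wI z) + 0
    positivity

/-- `0 ≤ dens` of the payer `zI`. -/
theorem zI_nn {ν : Nu E} {c cT : ℝ} {N ρx ρy : E → ℝ} (nn : NN ν z) (hc : 0 ≤ c) (hT : 0 ≤ cT)
    (hN : 0 ≤ N z) : 0 ≤ (qt (MI ν c) + TL cT N ρx ρy).dens σ τ v₁ v₂ W a b z := by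
  have f1 := nn.F₁
  have f2 := nn.F₂
  have e0 := nn.En
  have hm := nn.m
  have hI : 0 ≤ ν.wI z := by unfold Nu.wI; positivity
  have x2 : 0 ≤ ρx z ^ 2 := sq_nonneg _
  have y2 : 0 ≤ ρy z ^ 2 := sq_nonneg _
  have h := dens_mul_le (σ := σ) (τ := τ) (v₁ := v₁) (v₂ := v₂) (W := W) (a := a) (b := b)
    (z := z) (q := 0) (p := qt (MI ν c)) (M := qt (MI ν c) + TL cT N ρx ρy)
    (by show 0 * _ ≤ 1 / 4 * c + 0; rw [zero_mul]; positivity)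
    (by show 0 * _ ≤ 1 / 4 * c + cT * (N z * (ρx z ^ 2 + ρy z ^ 2)); rw [zero_mul]; positivity)
    (by show 0 * _ ≤ 1 / 4 * c + cT * (N z * (ρx z ^ 2 + ρy z ^ 2)); rw [zero_mul]; positivity)
    (by show 0 * _ ≤ 1 / 4 * (c * ν.En z) + 0; rw [zero_mul]; positivity)
    (by show 0 * _ ≤ 1 / 4 * (c * ν.F₁ z) + cT * (N z ^ 2 * ρx z ^ 2 + N z ^ 3 * ρy z ^ 2)
        rw [zero_mul]; positivity)
    (by show 0 * _ ≤ 1 / 4 * (c * ν.F₂ z) + cT * (N z ^ 3 * ρx z ^ 2 + N z ^ 2 * ρy z ^ 2)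
        rw [zero_mul]; positivity)
    (by show 0 * _ ≤ 1 / 4 * (c * ν.En z ^ 2) + 0; rw [zero_mul]; positivity)
    (by show 0 * _ ≤ 1 / 4 * (c * ν.wI z) + 0; rw [zero_mul]; positivity)
  linarith

/-- The cost of a tube vanishes where `et = 0`. -/
theorem coT1_zero {C : ℝ} {N et : E → ℝ} (h : et z = 0) :
    (coT1 C N et).dens σ τ v₁ v₂ W a b z = 0 := by
  unfold Q8.dens coT1
  simp only [h]
  ring

theorem coT2_zero {C : ℝ} {N et : E → ℝ} (h : et z = 0) :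
    (coT2 C N et).dens σ τ v₁ v₂ W a b z = 0 := by
  unfold Q8.dens coT2
  simp only [h]
  ring

/-- **The cost of `T1` against `zI`.** -/
theorem pay_T1_zI {ν : Nu E} {c cT q C : ℝ} {N ρx ρy et : E → ℝ} (nn : NN ν z) (hc : 0 ≤ c)
    (hT : 0 ≤ cT) (hN : 0 < N z) (hq : 0 ≤ q) (hC : 0 ≤ C) (h0 : 0 ≤ et z) (h1 : et z ≤ 1)
    (hx : et z = 0 ∨ ρx z = 1) (hκ : q * C ≤ c / 4 * √(N z)) (hc' : q * C ≤ cT * √(N z)) :
    q * (coT1 C N et).dens σ τ v₁ v₂ W a b z ≤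
      (qt (MI ν c) + TL cT N ρx ρy).dens σ τ v₁ v₂ W a b z := by
  rcases hx with h | h
  · rw [coT1_zero h, mul_zero]
    exact zI_nn nn hc hT hN.le
  · exact coT1_le (big_zI1 nn hc hT hN.le h) hN hq hC h0 h1 hκ hc'

/-- **The cost of `T2` against `zI`.** -/
theorem pay_T2_zI {ν : Nu E} {c cT q C : ℝ} {N ρx ρy et : E → ℝ} (nn : NN ν z) (hc : 0 ≤ c)
    (hT : 0 ≤ cT) (hN : 0 < N z) (hq : 0 ≤ q) (hC : 0 ≤ C) (h0 : 0 ≤ et z) (h1 : et z ≤ 1)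
    (hx : et z = 0 ∨ ρy z = 1) (hκ : q * C ≤ c / 4 * √(N z)) (hc' : q * C ≤ cT * √(N z)) :
    q * (coT2 C N et).dens σ τ v₁ v₂ W a b z ≤
      (qt (MI ν c) + TL cT N ρx ρy).dens σ τ v₁ v₂ W a b z := by
  rcases hx with h | h
  · rw [coT2_zero h, mul_zero]
    exact zI_nn nn hc hT hN.le
  · exact coT2_le (big_zI2 nn hc hT hN.le h) hN hq hC h0 h1 hκ hc'

/-! ## The cost of `zI` -/

/-- The cost of `zI` at a point of the layers: all letters of order zero at most `A N`. -/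
structure CI (σ τ : Sl E ι) (ν : Nu E) (νL : ι → E → ℝ) (χ n₁ n₂ s₁ s₂ Zq Zp : E → ℝ)
    (C A N : ℝ) (z : E) : Prop where
  b : C * (ν.En z * Zq z) ≤ A * N
  c : C * (ν.En z * Zp z + Zq z) ≤ A * N
  d₁ : n₁ z * Dn σ νL χ z ^ 2 ≤ A * N
  d₂ : n₂ z * Dn τ νL χ z ^ 2 ≤ A * N
  u₁ : s₁ z * σ.Γ χ χ z ≤ A * N
  u₂ : s₂ z * τ.Γ χ χ z ≤ A * N

/-- **The cost of `zI` against every payer with `w₁, w₂ ≥ c N²`.** -/
theorem cost_zI_le {ν : Nu E} {νL : ι → E → ℝ} {χ n₁ n₂ s₁ s₂ Zq Zp : E → ℝ} {M : Q8 E}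
    {C A N q c κ₁ N₁ a₁ a₂ : ℝ} (hC : CI σ τ ν νL χ n₁ n₂ s₁ s₂ Zq Zp C A N z)
    (hM : Big M κ₁ c N₁ a₁ a₂ z) (hκ : 0 ≤ κ₁) (hz : 0 ≤ c * N₁) (hq : 0 ≤ q)
    (h1 : q * (82 * (A * N)) ≤ c * a₁) (h2 : q * (82 * (A * N)) ≤ c * a₂) :
    q * (cI ν C Zq Zp + cdn σ τ νL χ n₁ n₂ + cu2 σ τ s₁ s₂ χ).dens σ τ v₁ v₂ W a b z ≤
      M.dens σ τ v₁ v₂ W a b z := by
  have k0 := sqd_nonneg σ τ v₁ v₂ W a b z
  have k1 := Q8.nX_nonneg σ W a z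
  have k2 := Q8.nX_nonneg τ W b z
  have k3 := Q8.nY_nonneg σ τ W a b z
  have j0 := mul_nonneg (hκ.trans hM.κ) k0
  have j1 := mul_nonneg (hz.trans hM.ζ₁) k1
  have j2 := mul_nonneg (hz.trans hM.ζ₂) k2
  have j3 := mul_nonneg hM.ζy k3
  have j4 := mul_le_mul_of_nonneg_right (h1.trans hM.w₁) (sq_nonneg (a z))
  have j5 := mul_le_mul_of_nonneg_right (h2.trans hM.w₂) (sq_nonneg (b z))
  have j6 := mul_nonneg hM.wb (sq_nonneg (a z + b z))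
  have j7 := mul_nonneg hM.wc (sq_nonneg (a z - b z))
  have e : (cI ν C Zq Zp + cdn σ τ νL χ n₁ n₂ + cu2 σ τ s₁ s₂ χ).dens σ τ v₁ v₂ W a b z =
      C * (ν.En z * Zq z) * (a z + b z) ^ 2 + C * (ν.En z * Zp z + Zq z) * (a z - b z) ^ 2 +
      (16 * (n₁ z * Dn σ νL χ z ^ 2) + 64 * (s₁ z * σ.Γ χ χ z)) * a z ^ 2 +
      (16 * (n₂ z * Dn τ νL χ z ^ 2) + 64 * (s₂ z * τ.Γ χ χ z)) * b z ^ 2 := by
    rw [Q8.dens_add, Q8.dens_add]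
    unfold Q8.dens cI cdn H338.C.tc cu2
    simp only
    ring
  have i1 := mul_le_mul_of_nonneg_right hC.b (sq_nonneg (a z + b z))
  have i2 := mul_le_mul_of_nonneg_right hC.c (sq_nonneg (a z - b z))
  have i3 := mul_le_mul_of_nonneg_right hC.d₁ (sq_nonneg (a z))
  have i4 := mul_le_mul_of_nonneg_right hC.d₂ (sq_nonneg (b z))
  have i5 := mul_le_mul_of_nonneg_right hC.u₁ (sq_nonneg (a z))
  have i6 := mul_le_mul_of_nonneg_right hC.u₂ (sq_nonneg (b z))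
  have i7 : (cI ν C Zq Zp + cdn σ τ νL χ n₁ n₂ + cu2 σ τ s₁ s₂ χ).dens σ τ v₁ v₂ W a b z ≤
      82 * (A * N) * a z ^ 2 + 82 * (A * N) * b z ^ 2 := by
    rw [e]
    linarith
  have i8 := mul_le_mul_of_nonneg_left i7 hq
  refine i8.trans ?_
  unfold Q8.dens
  nlinarith

/-- The cost of `zI` against `T1`. -/
theorem pay_zI_T1 {ν : Nu E} {νL : ι → E → ℝ} {χ n₁ n₂ s₁ s₂ Zq Zp N : E → ℝ}
    {C A q c : ℝ} (hC : CI σ τ ν νL χ n₁ n₂ s₁ s₂ Zq Zp C A (N z) z) (hc : 0 ≤ c) (hq : 0 ≤ q)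
    (hN : 1 ≤ N z) (h : q * (82 * A) ≤ c * N z) :
    q * (cI ν C Zq Zp + cdn σ τ νL χ n₁ n₂ + cu2 σ τ s₁ s₂ χ).dens σ τ v₁ v₂ W a b z ≤
      (MT1 c N).dens σ τ v₁ v₂ W a b z := by
  have h1 := mul_le_mul_of_nonneg_right h (by linarith : 0 ≤ N z)
  have h2 : c * N z ^ 2 ≤ c * N z ^ 3 := mul_le_mul_of_nonneg_left (cub hN) hc
  refine cost_zI_le hC (big_T1 c N z) zero_le_one (by positivity) hq ?_ ?_ <;> nlinarith

/-- The cost of `zI` against `T2`. -/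
theorem pay_zI_T2 {ν : Nu E} {νL : ι → E → ℝ} {χ n₁ n₂ s₁ s₂ Zq Zp N : E → ℝ}
    {C A q c : ℝ} (hC : CI σ τ ν νL χ n₁ n₂ s₁ s₂ Zq Zp C A (N z) z) (hc : 0 ≤ c) (hq : 0 ≤ q)
    (hN : 1 ≤ N z) (h : q * (82 * A) ≤ c * N z) :
    q * (cI ν C Zq Zp + cdn σ τ νL χ n₁ n₂ + cu2 σ τ s₁ s₂ χ).dens σ τ v₁ v₂ W a b z ≤
      (MT2 c N).dens σ τ v₁ v₂ W a b z := by
  have h1 := mul_le_mul_of_nonneg_right h (by linarith : 0 ≤ N z)
  have h2 : c * N z ^ 2 ≤ c * N z ^ 3 := mul_le_mul_of_nonneg_left (cub hN) hc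
  refine cost_zI_le hC (big_T2 c N z) zero_le_one (by positivity) hq ?_ ?_ <;> nlinarith

end Vale.Agent.P088.R2.H446.E
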